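import Mathlib

/-! Symmetric convex bodies, polars and covering numbers. -/

namespace Vale.Agent.P126

/-- An origin-symmetric convex body. -/
def SymBody {n : ℕ} (K : Set (EuclideanSpace ℝ (Fin n))) : Prop :=
  IsCompact K ∧ Convex ℝ K ∧ (interior K).Nonempty ∧ ∀ x ∈ K, -x ∈ K

/-- The polar set. -/
def polar {n : ℕ} (K : Set (EuclideanSpace ℝ (Fin n))) : Set (EuclideanSpace ℝ (Fin n)) :=
  {y | ∀ x ∈ K, inner ℝ x y ≤ 1}

/-- The least number of translates of `B` whose union contains `A`. -/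
noncomputable def cov {n : ℕ} (A B : Set (EuclideanSpace ℝ (Fin n))) : ℕ :=
  sInf {k | ∃ S : Finset (EuclideanSpace ℝ (Fin n)), S.card = k ∧
    ∀ z ∈ A, ∃ x ∈ S, ∃ y ∈ B, z = x + y}

end Vale.Agent.P126
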