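import Vale.Agent.P126.Sys

/-! The height function and its locality. -/

namespace Vale.Agent.P126
open Finset Classical

variable {Ω Q X : Type} [Fintype Ω]

/-- Intersections of one chosen set from each of the first stages. -/
noncomputable def nodes (R : ℕ → ℕ → Finset Ω) (T : ℕ → Finset ℕ) : ℕ → Finset (Finset Ω)
  | 0 => {univ}
  | s + 1 => image₂ (fun I j => I ∩ R s j) (nodes R T s) (T s)

variable {R : ℕ → ℕ → Finset Ω} {T J : ℕ → Finset ℕ}

lemma nodes_card (s : ℕ) : (nodes R T s).card ≤ ∏ i ∈ range s, (T i).card := by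
  induction s with
  | zero => simp [nodes]
  | succ s ih =>
    rw [prod_range_succ]
    exact (card_image₂_le _ _ _).trans (Nat.mul_le_mul_right _ ih)

lemma nodes_mono (h : ∀ s, T s ⊆ J s) (s : ℕ) : nodes R T s ⊆ nodes R J s := by
  induction s with
  | zero => exact Subset.refl _
  | succ s ih => exact image₂_subset ih (h s)

lemma nodes_seq (s : ℕ) : ∀ I ∈ nodes R T s, ∃ j : ℕ → ℕ, (∀ i, i < s → j i ∈ T i) ∧
    ∀ ω, (∀ i, i < s → ω ∈ R i (j i)) → ω ∈ I := by
  induction s with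
  | zero => exact fun I hI => ⟨fun _ => 0, fun i hi => absurd hi (by omega), fun ω _ => by
      rw [mem_singleton.1 hI]; exact mem_univ _⟩
  | succ s ih =>
    intro I hI
    obtain ⟨I', h1, l, h2, rfl⟩ := mem_image₂.1 hI
    obtain ⟨j, h3, h4⟩ := ih I' h1
    refine ⟨Function.update j s l, fun i hi => ?_, fun ω hω => mem_inter.2 ⟨h4 ω fun i hi => ?_, ?_⟩⟩
    · by_cases h : i = s
      · subst h; simpa using h2
      · rw [Function.update_of_ne h]; exact h3 i (by omega)
    · simpa only [Function.update_of_ne hi.ne] using hω i (by omega)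
    · simpa using hω s (by omega)

/-- Agreement on some node of stage `s`. -/
def Agr (R : ℕ → ℕ → Finset Ω) (T : ℕ → Finset ℕ) (s : ℕ) (x y : Ω → Q) : Prop :=
  ∃ I ∈ nodes R T s, ∀ ω ∈ I, x ω = y ω

/-- The number of stages with agreement. -/
noncomputable def hgt (R : ℕ → ℕ → Finset Ω) (T : ℕ → Finset ℕ) (A : ℕ) (x y : Ω → Q) : ℝ :=
  ∑ s ∈ range A, if Agr R T s x y then 1 else 0

variable [Fintype Q] [Inhabited Q] [Fintype X] {A : ℕ}

lemma stage (hA : 0 < A) (hJ : ∀ s, (J s).Nonempty) (Tr : X → ℕ → Finset ℕ) (xr : X → Ω → Q)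
    (hT : ∀ r s, Tr r s ⊆ J s ∧ A * (J s \ Tr r s).card ≤ (J s).card) {w : X → ℝ}
    (w0 : ∀ r, 0 ≤ w r) (w1 : ∑ r, w r ≤ 1) (s : ℕ) :
    ∃ (j : ℕ) (P : Finset (Ω × Q)) (bad : X → (Ω → Q) → Prop),
      P.card ≤ A * (∏ i ∈ range s, (J i).card) ^ 2 * (R s j).card ∧
      (∀ y, ∑ r, w r * (if bad r y then 1 else 0) ≤ 2 / A) ∧
      ∀ y y' : Ω → Q, (∀ p ∈ P, y p.1 = p.2 → y' p.1 = p.2) → ∀ r, Agr R (Tr r) s (xr r) y →
        Agr R (Tr r) (s + 1) (xr r) y' ∨ bad r y := by
  have A0 : (0 : ℝ) < A := by exact_mod_cast hA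
  obtain ⟨j, -, hj⟩ := exists_le_of_sum_le (hJ s) (g := fun _ => 1 / (A : ℝ))
    (f := fun j => ∑ r, w r * if j ∉ Tr r s then 1 else 0) (by
      rw [sum_comm, sum_const, nsmul_eq_mul]
      refine (sum_le_sum (g := fun r => w r * ((J s).card * (1 / (A : ℝ)))) fun r _ => ?_).trans ?_
      · rw [← mul_sum, sum_boole, ← sdiff_eq_filter]
        refine mul_le_mul_of_nonneg_left ?_ (w0 r)
        rw [mul_one_div, le_div_iff₀' A0]
        exact_mod_cast (hT r s).2
      · rw [← sum_mul]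
        exact mul_le_of_le_one_left (by positivity) w1)
  obtain ⟨N, hN⟩ : ∃ N, N = ∏ i ∈ range s, (J i).card := ⟨_, rfl⟩
  have N0 : (0 : ℝ) < N := by
    rw [Nat.cast_pos, hN]
    exact prod_pos fun i _ => card_pos.2 (hJ i)
  let res : Finset Ω → (Ω → Q) → Ω → Q := fun W x ω => if ω ∈ W then x ω else default
  let mass : Finset Ω → (Ω → Q) → ℝ := fun W u => ∑ r, if res W (xr r) = u then w r else 0
  let Hv : Finset Ω → Finset (Ω → Q) := fun W => univ.filter fun u => 1 / (A * N : ℝ) < mass W u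
  have hH : ∀ W, (Hv W).card ≤ A * N := fun W => by
    have e1 : ∑ u ∈ Hv W, 1 / (A * N : ℝ) ≤ ∑ u, mass W u :=
      (sum_le_sum fun u hu => (mem_filter.1 hu).2.le).trans
        (sum_le_sum_of_subset_of_nonneg (subset_univ _) fun u _ _ =>
          sum_nonneg fun r _ => by split_ifs; exacts [w0 r, le_rfl])
    have e2 : ∑ u, mass W u = ∑ r, w r := by
      simp only [mass]
      rw [sum_comm]
      simp
    rw [e2, sum_const, nsmul_eq_mul, mul_one_div, div_le_iff₀ (by positivity)] at e1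
    have : ((Hv W).card : ℝ) ≤ A * N := e1.trans (mul_le_of_le_one_left (by positivity) w1)
    exact_mod_cast this
  refine ⟨j, (nodes R J s).biUnion fun I =>
      image₂ (fun u ω => (ω, u ω)) (Hv (I ∩ R s j)) (I ∩ R s j),
    fun r y => j ∉ Tr r s ∨ ∃ I ∈ nodes R J s, res (I ∩ R s j) (xr r) = res (I ∩ R s j) y ∧
      res (I ∩ R s j) y ∉ Hv (I ∩ R s j), ?_, fun y => ?_, fun y y' hy r ⟨I, hI, h1⟩ => ?_⟩
  · refine (card_biUnion_le_card_mul _ _ (A * N * (R s j).card) fun I _ =>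
      (card_image₂_le _ _ _).trans
        (Nat.mul_le_mul (hH _) (card_le_card inter_subset_right))).trans ?_
    exact (Nat.mul_le_mul_right _ (nodes_card s)).trans (le_of_eq (by rw [← hN]; ring))
  · have e1 : ∀ I ∈ nodes R J s, ∑ r, w r * (if res (I ∩ R s j) (xr r) = res (I ∩ R s j) y ∧
        res (I ∩ R s j) y ∉ Hv (I ∩ R s j) then 1 else 0) ≤ 1 / (A * N : ℝ) := fun I _ => by
      by_cases h : res (I ∩ R s j) y ∈ Hv (I ∩ R s j)
      · simp only [h, not_true, and_false, if_false, mul_zero, sum_const_zero]; positivity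
      · simp only [h, not_false_iff, and_true, mul_ite, mul_one, mul_zero]
        simpa [Hv] using h
    have e2 := sum_le_sum e1
    have e3 : ((nodes R J s).card : ℝ) ≤ N := by rw [hN]; exact_mod_cast nodes_card s
    have e4 : ((nodes R J s).card : ℝ) * (1 / (A * N)) ≤ 1 / A :=
      (mul_le_mul_of_nonneg_right e3 (by positivity)).trans (le_of_eq (by field_simp))
    rw [sum_const, nsmul_eq_mul, sum_comm] at e2
    refine le_trans (sum_le_sum fun r _ => ?_)
      ((sum_add_distrib.trans_le (add_le_add hj (e2.trans e4))).trans (le_of_eq (by ring)))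
    rw [← mul_sum, ← mul_add]
    refine mul_le_mul_of_nonneg_left ?_ (w0 r)
    have f0 : ∀ I ∈ nodes R J s, (0 : ℝ) ≤ if res (I ∩ R s j) (xr r) = res (I ∩ R s j) y ∧
        res (I ∩ R s j) y ∉ Hv (I ∩ R s j) then 1 else 0 := fun I _ => by positivity
    have f1 := sum_nonneg f0
    split_ifs with h1 h2 h2
    · obtain ⟨I, hI, h3⟩ := h1.resolve_left (not_not.2 h2)
      have := single_le_sum f0 hI
      rw [if_pos h3] at this
      linarith
    · linarith
    · linarith
    · linarith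
  · have hI' := nodes_mono (fun s => (hT r s).1) s hI
    by_cases h2 : j ∈ Tr r s
    · by_cases h3 : res (I ∩ R s j) y ∈ Hv (I ∩ R s j)
      · refine Or.inl ⟨I ∩ R s j, mem_image₂_of_mem hI h2, fun ω hω => ?_⟩
        have h4 : res (I ∩ R s j) y ω = y ω := if_pos hω
        have := hy (ω, res (I ∩ R s j) y ω)
          (mem_biUnion.2 ⟨I, hI', mem_image₂_of_mem (f := fun u ω => (ω, u ω)) h3 hω⟩) h4.symm
        rw [h1 ω (mem_inter.1 hω).1, ← h4]
        exact this.symm
      · refine Or.inr (Or.inr ⟨I, hI', funext fun ω => ?_, h3⟩)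
        simp only [res]
        split_ifs with hω
        exacts [h1 ω (mem_inter.1 hω).1, rfl]
    · exact Or.inr (Or.inl h2)

theorem loc {B : ℕ} {d : ℝ} (hA : 0 < A) (h : Sys Ω A A (A ^ 2 * B) d J R)
    (Tr : X → ℕ → Finset ℕ) (xr : X → Ω → Q)
    (hT : ∀ r s, Tr r s ⊆ J s ∧ A * (J s \ Tr r s).card ≤ (J s).card) {θ : X → ℝ}
    (hθ : ∑ r, |θ r| ≤ 1) : ∃ P : Finset (Ω × Q), B * P.card ≤ Fintype.card Ω ∧
      ∀ y y' : Ω → Q, (∀ p ∈ P, y p.1 = p.2 ↔ y' p.1 = p.2) →
        |∑ r, θ r * hgt R (Tr r) A (xr r) y - ∑ r, θ r * hgt R (Tr r) A (xr r) y'| ≤ 5 := by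
  have A0 : (0 : ℝ) < A := by exact_mod_cast hA
  choose j P bad h1 h2 h3 using stage (R := R) hA h.ne Tr xr hT (fun r => abs_nonneg (θ r)) hθ
  let err : X → (Ω → Q) → ℝ := fun r y => ∑ s ∈ range A, if bad s r y then 1 else 0
  have e0 : ∀ r y, 0 ≤ err r y := fun r y => sum_nonneg fun _ _ => by positivity
  have e1 : ∀ y, ∑ r, |θ r| * err r y ≤ 2 := fun y => by
    simp only [err, mul_sum]
    rw [sum_comm]
    refine (sum_le_sum fun s _ => h2 s y).trans (le_of_eq ?_)
    rw [sum_const, card_range, nsmul_eq_mul]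
    field_simp
  have e2 : ∀ y y' : Ω → Q, (∀ p ∈ (range A).biUnion P, y p.1 = p.2 → y' p.1 = p.2) → ∀ r,
      hgt R (Tr r) A (xr r) y ≤ hgt R (Tr r) A (xr r) y' + 1 + err r y := fun y y' hy r => by
    have a1 := sum_range_succ' (fun s => if Agr R (Tr r) s (xr r) y' then (1 : ℝ) else 0) A
    have a2 := sum_range_succ (fun s => if Agr R (Tr r) s (xr r) y' then (1 : ℝ) else 0) A
    have a3 : (0 : ℝ) ≤ if Agr R (Tr r) 0 (xr r) y' then 1 else 0 := by positivity
    have a4 : (if Agr R (Tr r) A (xr r) y' then (1 : ℝ) else 0) ≤ 1 := by split_ifs <;> norm_num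
    have a5 : hgt R (Tr r) A (xr r) y ≤
        ∑ s ∈ range A, (if Agr R (Tr r) (s + 1) (xr r) y' then (1 : ℝ) else 0) + err r y := by
      rw [← sum_add_distrib]
      refine sum_le_sum fun s hs => ?_
      have := h3 s y y' (fun p hp => hy p (mem_biUnion.2 ⟨s, hs, hp⟩)) r
      split_ifs <;> simp_all
    simp only [hgt] at *
    linarith
  refine ⟨(range A).biUnion P, ?_, fun y y' hy => ?_⟩
  · refine Nat.le_of_mul_le_mul_left ?_ hA
    refine (Nat.mul_le_mul_left _ (Nat.mul_le_mul_left _ card_biUnion_le)).trans ?_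
    rw [mul_sum, mul_sum]
    refine (sum_le_card_nsmul _ _ (Fintype.card Ω) fun s hs => ?_).trans (by simp)
    refine le_trans ?_ (h.small s (mem_range.1 hs) (j s))
    exact (Nat.mul_le_mul_left _ (Nat.mul_le_mul_left _ (h1 s))).trans (le_of_eq (by ring))
  · rw [← sum_sub_distrib]
    refine (abs_sum_le_sum_abs _ _).trans ((sum_le_sum
      (g := fun r => |θ r| + |θ r| * err r y + |θ r| * err r y') fun r _ => ?_).trans ?_)
    · rw [← mul_sub, abs_mul]
      have b1 := e2 y y' (fun p hp => (hy p hp).1) r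
      have b2 := e2 y' y (fun p hp => (hy p hp).2) r
      refine (mul_le_mul_of_nonneg_left (show _ ≤ 1 + err r y + err r y' from
        abs_le.2 ⟨by linarith [e0 r y], by linarith [e0 r y']⟩) (abs_nonneg _)).trans
        (le_of_eq (by ring))
    · rw [sum_add_distrib, sum_add_distrib]
      linarith [e1 y, e1 y']

end Vale.Agent.P126
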