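import Vale.Agent.P126.Loc
import Vale.Agent.P126.Defs

/-! The counterexample. -/

namespace Vale.Agent.P126
open Finset Classical Pointwise

theorem matrix (t b : ℝ) (hb : 0 < b) : ∃ (n : ℕ) (Y C : Type) (_ : Fintype Y)
    (f : Y → Fin n → ℝ) (S : Finset C) (code : (Fin n → ℝ) → C) (m : ℕ), 1 ≤ n ∧
    (∀ θ, ∑ i, |θ i| ≤ 1 → code θ ∈ S) ∧
    (∀ θ θ', ∑ i, |θ i| ≤ 1 → ∑ i, |θ' i| ≤ 1 → code θ = code θ' → ∀ y,
      |∑ i, θ i * f y i - ∑ i, θ' i * f y i| ≤ 11) ∧
    (∀ y, (univ.filter fun y' => ∀ i, |f y i - f y' i| ≤ t).card ≤ m) ∧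
    ∀ N : ℕ, Fintype.card Y ≤ N * m → b * Real.log S.card < Real.log N := by
  obtain ⟨A, hA⟩ := exists_nat_gt (max t 0)
  have A0 : 0 < A := by exact_mod_cast (le_max_right t 0).trans_lt hA
  obtain ⟨B, hB⟩ := exists_nat_gt (4 * b)
  have B0 : 0 < B := by exact_mod_cast (show (0 : ℝ) < 4 * b by linarith).trans hB
  obtain ⟨Ω, _, _, J, R, h⟩ := exists_sys A (A ^ 2 * B) A (1 / 2) (by norm_num) (by norm_num)
  obtain ⟨G, hG⟩ : ∃ G, G = Fintype.card Ω := ⟨_, rfl⟩
  have G1 : (1 : ℝ) ≤ G := by rw [hG]; exact_mod_cast Fintype.card_pos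
  obtain ⟨p, hp⟩ : ∃ p, p = G / B := ⟨_, rfl⟩
  obtain ⟨c, hc⟩ : ∃ c : ℝ, c = b * (p * Real.log G + 2 ^ p * Real.log (2 * A + 1)) +
    G * Real.log 2 := ⟨_, rfl⟩
  obtain ⟨q, hq⟩ := exists_nat_gt (Real.exp (4 * |c|))
  have q0 : (0 : ℝ) < q := (Real.exp_pos _).trans hq
  have hq2 : 4 * |c| < Real.log q := (Real.lt_log_iff_exp_lt q0).2 hq
  have : Inhabited (Fin q) := ⟨⟨0, by exact_mod_cast q0⟩⟩
  have : Inhabited Ω := Classical.inhabited_of_nonempty inferInstance
  have hT : ∀ D : Finset Ω, ∃ T : ℕ → Finset ℕ,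
      (∀ s, T s ⊆ J s ∧ A * (J s \ T s).card ≤ (J s).card) ∧
      (1 / 2 * (G : ℝ) ≤ D.card → ∀ s, s ≤ A → ∀ I ∈ nodes R T s, ∃ ω ∈ D, ω ∈ I) := fun D => by
    by_cases hD : 1 / 2 * (G : ℝ) ≤ D.card
    · obtain ⟨T, h1, h2⟩ := h.hit D (hG ▸ hD)
      refine ⟨T, h1, fun _ s hs I hI => ?_⟩
      obtain ⟨j, h3, h4⟩ := nodes_seq s I hI
      obtain ⟨ω, h5, h6⟩ := h2 s hs j h3
      exact ⟨ω, h5, h4 ω h6⟩
    · exact ⟨J, fun s => by simp, fun h => absurd h hD⟩
  choose T hT1 hT2 using hT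
  let e := (Fintype.equivFin (Finset Ω × (Ω → Fin q))).symm
  let f : (Ω → Fin q) → Fin _ → ℝ := fun y i => hgt R (T (e i).1) A (e i).2 y
  let pat : (Fin p → Ω × Fin q) → (Ω → Fin q) → Fin p → Bool := fun E y i =>
    decide (y (E i).1 = (E i).2)
  have hE : ∀ θ : Fin _ → ℝ, ∃ E : Fin p → Ω × Fin q, ∑ i, |θ i| ≤ 1 → ∀ y y',
      pat E y = pat E y' → |∑ i, θ i * f y i - ∑ i, θ i * f y' i| ≤ 5 := fun θ => by
    by_cases hθ : ∑ i, |θ i| ≤ 1
    · obtain ⟨P, h1, h2⟩ := loc A0 h (fun i => T (e i).1) (fun i => (e i).2)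
        (fun i => hT1 _) hθ
      obtain ⟨ι⟩ : Nonempty (P ↪ Fin p) := Function.Embedding.nonempty_of_card_le (by
        rw [Fintype.card_coe, Fintype.card_fin, hp, Nat.le_div_iff_mul_le B0, mul_comm, hG]
        exact h1)
      refine ⟨Function.extend ι Subtype.val fun _ => default, fun _ y y' hy =>
        h2 y y' fun x hx => ?_⟩
      simpa [pat, ι.injective.extend_apply] using congrFun hy (ι ⟨x, hx⟩)
    · exact ⟨default, fun h => absurd h hθ⟩
  choose E hE using hE
  refine ⟨_, Ω → Fin q, (Fin p → Ω × Fin q) × ((Fin p → Bool) → ℤ), inferInstance, f,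
    univ ×ˢ Fintype.piFinset fun _ => Icc (-A : ℤ) A,
    fun θ => (E θ, fun s => ⌊∑ i, θ i * f (Function.invFun (pat (E θ)) s) i⌋),
    2 ^ G * q ^ (G / 2), Fintype.card_pos, fun θ hθ => ?_, fun θ θ' hθ hθ' hc y => ?_,
    fun y => ?_, fun N hN => ?_⟩
  · refine mem_product.2 ⟨mem_univ _, Fintype.mem_piFinset.2 fun s => ?_⟩
    have : ∀ y, |∑ i, θ i * f y i| ≤ A := fun y => by
      refine (abs_sum_le_sum_abs _ _).trans ((sum_le_sum (g := fun i => |θ i| * A)
        fun i _ => ?_).trans ?_)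
      · rw [abs_mul]
        refine mul_le_mul_of_nonneg_left ((abs_sum_le_sum_abs _ _).trans ?_) (abs_nonneg _)
        exact (sum_le_card_nsmul _ _ 1 fun _ _ => by split_ifs <;> simp).trans (by simp)
      · rw [← sum_mul]
        exact mul_le_of_le_one_left (by positivity) hθ
    have h1 := abs_le.1 (this (Function.invFun (pat (E θ)) s))
    exact mem_Icc.2 ⟨Int.le_floor.2 (by simpa using h1.1),
      by exact_mod_cast (Int.floor_le _).trans h1.2⟩
  · obtain ⟨h1, h2⟩ := Prod.mk.inj hc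
    have h3 := Int.abs_sub_lt_one_of_floor_eq_floor (congrFun h2 (pat (E θ) y))
    have h4 := Function.invFun_eq (f := pat (E θ)) ⟨y, rfl⟩
    have h5 := abs_le.1 (hE θ hθ _ _ h4)
    rw [← h1] at h3
    have h6 := abs_le.1 (hE θ' hθ' _ _ (h1 ▸ h4))
    rw [← h1] at h6
    rw [abs_lt] at h3
    exact abs_le.2 ⟨by linarith, by linarith⟩
  · refine (card_le_card (t := univ.biUnion fun D : Finset Ω => if D.card ≤ G / 2 then
      Fintype.piFinset fun ω => if ω ∈ D then univ else {y ω} else ∅) fun y' hy => ?_).trans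
      ((card_biUnion_le_card_mul _ _ (q ^ (G / 2)) fun D _ => ?_).trans (by simp [hG]))
    · let D : Finset Ω := univ.filter fun ω => y ω ≠ y' ω
      refine mem_biUnion.2 ⟨D, mem_univ _, ?_⟩
      rw [if_pos, Fintype.mem_piFinset]
      · intro ω
        by_cases hω : y ω = y' ω <;> simp [D, hω]
      by_contra hD
      have h1 : 1 / 2 * (G : ℝ) ≤ D.card := by
        have : (G : ℝ) ≤ 2 * D.card := by exact_mod_cast (show G ≤ 2 * D.card by omega)
        linarith
      have h2 := (mem_filter.1 hy).2 (e.symm (D, y))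
      have h3 : hgt R (T D) A y y' = 0 := sum_eq_zero fun s hs => if_neg fun ⟨I, hI, h4⟩ => by
        obtain ⟨ω, h5, h6⟩ := hT2 D h1 s (mem_range.1 hs).le I hI
        exact (mem_filter.1 h5).2 (h4 ω h6)
      have h4 : ∀ s, s ≤ A → s = 0 ∨ 1 < A → (nodes R (T D) s).Nonempty := fun s => by
        induction s with
        | zero => exact fun _ _ => singleton_nonempty _
        | succ s ih =>
          intro hs hs2
          refine (ih (by omega) (by omega)).image₂ (nonempty_iff_ne_empty.2 fun h0 => ?_)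
          have h7 := (hT1 D s).2
          have h8 := (h.ne s).card_pos
          rw [h0, sdiff_empty] at h7
          nlinarith [hs2.resolve_left (by omega)]
      have h5 : hgt R (T D) A y y = A := by
        rw [hgt, sum_congr rfl fun s hs => if_pos ?_]
        · simp
        · have := mem_range.1 hs
          obtain ⟨I, hI⟩ := h4 s this.le (by omega)
          exact ⟨I, hI, fun _ _ => rfl⟩
      simp only [f, Equiv.apply_symm_apply, h3, h5, sub_zero, Nat.abs_cast] at h2
      linarith [le_max_left t 0]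
    · split_ifs with hD
      · rw [Fintype.card_piFinset]
        simp only [apply_ite card, card_univ, Fintype.card_fin, card_singleton, prod_ite_mem,
          univ_inter, prod_const]
        exact Nat.pow_le_pow_right (by exact_mod_cast q0) hD
      · simp
  · have h1 : (q : ℝ) ^ G ≤ N * (2 ^ G * q ^ (G / 2)) := by
      rw [Fintype.card_fun, Fintype.card_fin, ← hG] at hN
      exact_mod_cast hN
    have N0 : (0 : ℝ) < N :=
      (pos_iff_pos_of_mul_pos ((pow_pos q0 G).trans_le h1)).2 (by positivity)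
    have h2 := Real.log_le_log (by positivity) h1
    rw [Real.log_mul N0.ne' (by positivity), Real.log_mul (by positivity) (by positivity),
      Real.log_pow, Real.log_pow, Real.log_pow] at h2
    have h3 : ((univ ×ˢ Fintype.piFinset fun _ : Fin p → Bool => Icc (-A : ℤ) A :
        Finset ((Fin p → Ω × Fin q) × _)).card : ℝ) = (G * q) ^ p * (2 * A + 1) ^ 2 ^ p := by
      have : ((A : ℤ) + 1 + A).toNat = 2 * A + 1 := by omega
      simp [← hG, this]
    rw [h3, Real.log_mul (by positivity) (by positivity), Real.log_pow, Real.log_pow,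
      Real.log_mul (by positivity) q0.ne']
    have h4 : ((G / 2 : ℕ) : ℝ) ≤ G / 2 := Nat.cast_div_le
    have h5 : (p : ℝ) * B ≤ G := by rw [hp]; exact_mod_cast Nat.div_mul_le_self G B
    have h6 : 4 * b * p ≤ G := by nlinarith [(Nat.cast_nonneg p : (0 : ℝ) ≤ p)]
    have l0 : 0 ≤ Real.log q := by linarith [abs_nonneg c]
    push_cast
    nlinarith [mul_le_mul_of_nonneg_right h4 l0, mul_le_mul_of_nonneg_right h6 l0,
      mul_le_mul_of_nonneg_right G1 l0, le_abs_self c]

variable {n : ℕ}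

/-- A finite intersection of symmetric slabs. -/
def slab {ι : Type} (F : ι → Fin n → ℝ) (c : ℝ) : Set (EuclideanSpace ℝ (Fin n)) :=
  {θ | ∀ k, |∑ i, θ i * F k i| ≤ c}

lemma slab_ball {ι : Type} [Finite ι] (F : ι → Fin n → ℝ) {c : ℝ} (hc : 0 < c) :
    (0 : EuclideanSpace ℝ (Fin n)) ∈ interior (slab F c) := by
  refine interior_maximal (t := ⋂ k, {θ : EuclideanSpace ℝ (Fin n) | |∑ i, θ i * F k i| < c})
    (s := slab F c) ?_
    (isOpen_iInter_of_finite fun k => isOpen_lt (by fun_prop) continuous_const)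
    (Set.mem_iInter.2 fun k => by simpa using hc)
  intro θ h k
  have : |∑ i, θ i * F k i| < c := Set.mem_iInter.1 h k
  exact this.le

lemma slab_body {ι : Type} [Finite ι] (F : ι → Fin n → ℝ) {c : ℝ} (hc : 0 < c)
    (hb : ∀ θ ∈ slab F c, ∀ i, |θ i| ≤ c) : SymBody (slab F c) := by
  refine ⟨Metric.isCompact_of_isClosed_isBounded ?_
    (isBounded_iff_forall_norm_le.2 ⟨√(∑ _i : Fin n, c ^ 2), fun θ h => ?_⟩),
    fun x hx y hy u v hu hv huv k => ?_, ⟨0, slab_ball F hc⟩, fun x hx k => ?_⟩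
  · rw [slab, Set.ofPred_forall]
    exact isClosed_iInter fun k => isClosed_le (by fun_prop) continuous_const
  · rw [EuclideanSpace.norm_eq]
    exact Real.sqrt_le_sqrt (sum_le_sum fun i _ => pow_le_pow_left₀ (norm_nonneg _) (hb θ h i) 2)
  · have h1 := abs_le.1 (hx k)
    have h2 := abs_le.1 (hy k)
    simp only [PiLp.add_apply, PiLp.smul_apply, smul_eq_mul, add_mul, sum_add_distrib, mul_assoc,
      ← mul_sum]
    rw [abs_le]
    constructor <;> nlinarith
  · simpa [abs_neg] using hx k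

lemma cov_mem {K L : Set (EuclideanSpace ℝ (Fin n))} (hK : SymBody K) (hL : 0 ∈ interior L)
    {a : ℝ} (ha : 0 < a) : ∃ S : Finset (EuclideanSpace ℝ (Fin n)),
      S.card = cov (polar L) (a • polar K) ∧
      ∀ z ∈ polar L, ∃ x ∈ S, ∃ y ∈ a • polar K, z = x + y := by
  refine Nat.sInf_mem (s := {k | ∃ S : Finset (EuclideanSpace ℝ (Fin n)), S.card = k ∧
    ∀ z ∈ polar L, ∃ x ∈ S, ∃ y ∈ a • polar K, z = x + y}) ?_
  obtain ⟨ε, ε0, hε⟩ := Metric.mem_nhds_iff.1 (mem_interior_iff_mem_nhds.1 hL)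
  obtain ⟨r, r0, hr⟩ := hK.1.isBounded.exists_pos_norm_le
  have hb : Bornology.IsBounded (polar L) := isBounded_iff_forall_norm_le.2 ⟨2 / ε, fun v hv => by
    rcases (norm_nonneg v).eq_or_lt with h | h
    · rw [← h]; positivity
    have := hv ((ε / 2 / ‖v‖) • v) (hε (by
      rw [mem_ball_zero_iff, norm_smul, Real.norm_of_nonneg (by positivity),
        div_mul_cancel₀ _ h.ne']
      linarith))
    rw [real_inner_smul_left, real_inner_self_eq_norm_mul_norm, ← mul_assoc,
      div_mul_cancel₀ _ h.ne'] at this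
    rw [le_div_iff₀ ε0]
    linarith⟩
  obtain ⟨t, ht, h⟩ := Metric.totallyBounded_iff.1
    (hb.isCompact_closure.totallyBounded.subset subset_closure) (a / r) (by positivity)
  refine ⟨_, ht.toFinset, rfl, fun z hz => ?_⟩
  obtain ⟨x, hx, h1⟩ := Set.mem_iUnion₂.1 (h hz)
  refine ⟨x, ht.mem_toFinset.2 hx, z - x, ⟨a⁻¹ • (z - x), fun w hw => ?_, by simp [ha.ne']⟩,
    by abel⟩
  rw [Metric.mem_ball, dist_eq_norm, lt_div_iff₀ r0] at h1
  rw [real_inner_smul_right, inv_mul_le_iff₀ ha]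
  nlinarith [real_inner_le_norm w (z - x), hr w hw, norm_nonneg (z - x)]

theorem counter {a b : ℝ} (ha : 0 < a) (hb : 0 < b) : ∃ n, 1 ≤ n ∧
    ∃ K L : Set (EuclideanSpace ℝ (Fin n)), SymBody K ∧ SymBody L ∧
      b * Real.log (cov K L) < Real.log (cov (polar L) (a • polar K)) := by
  obtain ⟨n, Y, C, _, f, S, code, m, hn, h1, h2, h3, h4⟩ := matrix (22 * a) b hb
  let F : (Fin n → Bool) → Fin n → ℝ := fun s i => if s i then 1 else -1
  let F' : Y ⊕ Fin n → Fin n → ℝ := Sum.elim f fun j => Pi.single j 1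
  have k1 : ∀ θ ∈ slab F 1, ∑ i, |θ i| ≤ 1 := fun θ h => by
    refine le_trans (le_of_eq (sum_congr rfl fun i _ => ?_))
      ((le_abs_self _).trans (h fun i => decide (0 ≤ θ i)))
    by_cases h0 : 0 ≤ θ i
    · simp [F, h0, abs_of_nonneg h0]
    · simp [F, h0, abs_of_neg (not_le.1 h0)]
  have k2 : ∀ θ ∈ slab F 1, ∀ i, |θ i| ≤ 1 := fun θ h i =>
    (single_le_sum (f := fun i => |θ i|) (fun _ _ => abs_nonneg _) (mem_univ i)).trans (k1 θ h)
  have hK := slab_body F one_pos k2
  have ip : ∀ x y : EuclideanSpace ℝ (Fin n), inner ℝ x y = ∑ j, x j * y j := fun x y => by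
    simp [PiLp.inner_apply, mul_comm]
  have k3 : ∀ v ∈ a • polar (slab F 1), ∀ i, |v i| ≤ a := by
    rintro _ ⟨v, hv, rfl⟩ i
    have e : EuclideanSpace.single i (1 : ℝ) ∈ slab F 1 := fun s => by
      rw [sum_eq_single i (fun j _ hj => by simp [hj]) (by simp)]
      by_cases h : s i <;> simp [F, h]
    have e1 := hv _ e
    have e2 := hv _ (hK.2.2.2 _ e)
    simp only [inner_neg_left, EuclideanSpace.inner_single_left, conj_trivial, one_mul] at e1 e2
    simp only [PiLp.smul_apply, smul_eq_mul, abs_mul, abs_of_pos ha]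
    exact mul_le_of_le_one_right ha.le (abs_le.2 ⟨by linarith, e1⟩)
  refine ⟨n, hn, slab F 1, slab F' 11, hK, slab_body F' (by norm_num) fun θ h i => by
    simpa [F', Pi.single_apply] using h (Sum.inr i), ?_⟩
  obtain ⟨T, hT, hT2⟩ := cov_mem hK (slab_ball F' (c := 11) (by norm_num)) ha
  refine lt_of_le_of_lt (mul_le_mul_of_nonneg_left ?_ hb.le) (h4 _ ?_)
  · let g : slab F 1 → C := fun θ => code θ.1
    have : Nonempty (slab F 1) := ⟨⟨0, interior_subset (slab_ball F one_pos)⟩⟩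
    have : cov (slab F 1) (slab F' 11) ≤ S.card := by
      refine le_trans (Nat.sInf_le ?_) (card_image_le (f := fun c => (Function.invFun g c).1))
      refine ⟨_, rfl, fun z hz => ?_⟩
      have e := Function.invFun_eq (f := g) ⟨⟨z, hz⟩, rfl⟩
      obtain ⟨w, hw⟩ : ∃ w, w = Function.invFun g (g ⟨z, hz⟩) := ⟨_, rfl⟩
      refine ⟨w.1, hw ▸ mem_image_of_mem _ (h1 _ (k1 z hz)), z - w.1, ?_, by abel⟩
      rw [← hw] at e
      rintro (y | j)
      · simpa [F', sub_mul] using h2 z w.1 (k1 z hz) (k1 _ w.2) e.symm y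
      · have := abs_sub (z j) (w.1 j)
        simp only [F', Sum.elim_inr, Pi.single_apply, mul_ite, mul_one, mul_zero, sum_ite_eq',
          mem_univ, if_true, PiLp.sub_apply]
        linarith [k2 z hz j, k2 _ w.2 j]
    rcases (cov (slab F 1) (slab F' 11)).eq_zero_or_pos with h0 | h0
    · rw [h0, Nat.cast_zero, Real.log_zero]
      exact Real.log_natCast_nonneg _
    · exact Real.log_le_log (by exact_mod_cast h0) (by exact_mod_cast this)
  · have : ∀ y, ∃ x ∈ T, ∀ i, |f y i / 11 - x i| ≤ a := fun y => by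
      obtain ⟨x, hx, v, hv, e⟩ := hT2 (WithLp.toLp 2 fun i => f y i / 11) fun θ h => by
        have := (abs_le.1 (h (Sum.inl y))).2
        simp only [ip, ← mul_div_assoc, ← sum_div]
        simp only [F', Sum.elim_inl] at this
        linarith
      refine ⟨x, hx, fun i => ?_⟩
      have e1 : f y i / 11 = x i + v i := congrArg (· i) e
      rw [e1, add_sub_cancel_left]
      exact k3 v hv i
    choose x hx hx2 using this
    rw [← hT, mul_comm, ← card_univ]
    refine card_le_mul_card_image_of_maps_to (f := x) (fun y _ => hx y) m fun z _ => ?_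
    rcases (univ.filter fun y => x y = z).eq_empty_or_nonempty with h0 | ⟨y, hy⟩
    · simp [h0]
    refine le_trans (card_le_card fun y' hy' => mem_filter.2 ⟨mem_univ _, fun i => ?_⟩) (h3 y)
    have e1 := abs_le.1 (hx2 y i)
    have e2 := abs_le.1 (hx2 y' i)
    rw [(mem_filter.1 hy).2] at e1
    rw [(mem_filter.1 hy').2] at e2
    exact abs_le.2 ⟨by linarith, by linarith⟩

end Vale.Agent.P126
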