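import Mathlib

/-! Staged families of small coordinate sets that hit every dense set. -/

namespace Vale.Agent.P126
open Finset

/-- Staged families `R s j`, `j ∈ J s`, of small sets; most choices hit a given dense set. -/
structure Sys (Ω : Type) [Fintype Ω] (A c M : ℕ) (d : ℝ) (J : ℕ → Finset ℕ)
    (R : ℕ → ℕ → Finset Ω) : Prop where
  ne : ∀ s, (J s).Nonempty
  small : ∀ s, s < A → ∀ j, M * (∏ i ∈ range s, (J i).card) ^ 2 * (R s j).card ≤ Fintype.card Ω
  hit : ∀ D : Finset Ω, d * Fintype.card Ω ≤ D.card → ∃ T : ℕ → Finset ℕ,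
    (∀ s, T s ⊆ J s ∧ c * (J s \ T s).card ≤ (J s).card) ∧ ∀ s, s ≤ A → ∀ j : ℕ → ℕ,
      (∀ i, i < s → j i ∈ T i) → ∃ ω ∈ D, ∀ i, i < s → ω ∈ R i (j i)

theorem exists_sys (c M A : ℕ) : ∀ d : ℝ, 0 < d → d ≤ 1 →
    ∃ (Ω : Type) (_ : Fintype Ω) (_ : Nonempty Ω) (J : ℕ → Finset ℕ) (R : ℕ → ℕ → Finset Ω),
      Sys Ω A c M d J R := by
  classical
  induction A with
  | zero =>
    refine fun d hd _ => ⟨Unit, inferInstance, inferInstance, fun _ => {0}, fun _ _ => ∅,
      fun _ => by simp, fun s hs => absurd hs (by omega), fun D hD => ⟨fun _ => {0},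
        fun _ => by simp, fun s hs j _ => ?_⟩⟩
    obtain ⟨ω, hω⟩ : D.Nonempty := by
      rw [← card_pos, ← Nat.cast_pos (α := ℝ)]
      simp only [Fintype.card_unique, Nat.cast_one, mul_one] at hD
      linarith
    exact ⟨ω, hω, fun i hi => absurd hi (by omega)⟩
  | succ A ih =>
    intro d hd hd1
    obtain ⟨Ω, _, _, J, R, h⟩ := ih (d / 2) (by linarith) (by linarith)
    obtain ⟨k, hk⟩ := exists_pow_lt_of_lt_one
      (show (0 : ℝ) < 1 / (c * Fintype.card Ω + 1) by positivity) (show 1 - d / 2 < 1 by linarith)
    obtain ⟨n, hn⟩ : ∃ n, n = M * (∏ i ∈ range A, (J i).card) ^ 2 * k + 1 := ⟨_, rfl⟩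
    have n0 : (0 : ℝ) < n := Nat.cast_pos.2 (by omega)
    have : Nonempty (Fin n) := ⟨⟨0, by omega⟩⟩
    obtain ⟨e, he⟩ := exists_injective_nat (Fin k → Fin n)
    let e' : (Fin k → Fin n) ↪ ℕ := ⟨e, he⟩
    have hJ : ∀ s, s ≤ A → ∏ i ∈ range s, (Function.update J A (univ.map e') i).card =
        ∏ i ∈ range s, (J i).card := fun s hs => prod_congr rfl fun i hi => by
      rw [Function.update_of_ne (by have := mem_range.1 hi; omega)]
    refine ⟨Ω × Fin n, inferInstance, inferInstance, Function.update J A (univ.map e'),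
      fun i j => if i = A then univ ×ˢ image (Function.invFun e j) univ else R i j ×ˢ univ,
      fun s => ?_, fun s hs j => ?_, fun D' hD' => ?_⟩
    · by_cases hs : s = A
      · subst hs; simp
      · rw [Function.update_of_ne hs]; exact h.ne s
    · rw [hJ s (by omega), Fintype.card_prod, Fintype.card_fin]
      split_ifs with hA
      · subst hA
        have : (image (Function.invFun e j) univ).card ≤ k := card_image_le.trans (by simp)
        rw [card_product, card_univ, mul_left_comm]
        exact Nat.mul_le_mul_left _ ((Nat.mul_le_mul_left _ this).trans (by omega))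
      · rw [card_product, card_univ, Fintype.card_fin, ← mul_assoc]
        exact Nat.mul_le_mul_right _ (h.small s (by omega) j)
    let fib : Ω → Finset (Fin n) := fun ω => univ.filter fun i => (ω, i) ∈ D'
    let D : Finset Ω := univ.filter fun ω => d / 2 * n ≤ (fib ω).card
    have hD : d / 2 * Fintype.card Ω ≤ D.card := by
      have e1 : (D'.card : ℝ) = ∑ ω, ((fib ω).card : ℝ) := by
        simp only [fib, card_filter, Nat.cast_sum, ← Fintype.sum_prod_type']
        simp
      have e2 : ∑ ω, ((fib ω).card : ℝ) ≤ ∑ ω, ((if ω ∈ D then (n : ℝ) else 0) + d / 2 * n) :=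
        sum_le_sum fun ω _ => by
          split_ifs with hω
          · have : ((fib ω).card : ℝ) ≤ n := by exact_mod_cast card_finset_fin_le _
            nlinarith
          · simp only [D, mem_filter, mem_univ, true_and, not_le] at hω
            linarith
      simp only [sum_add_distrib, sum_ite_mem, univ_inter, sum_const, card_univ,
        nsmul_eq_mul] at e2
      simp only [Fintype.card_prod, Fintype.card_fin, Nat.cast_mul] at hD'
      refine le_of_mul_le_mul_right ?_ n0
      linarith
    obtain ⟨T, hT, hT2⟩ := h.hit D hD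
    let Bad : Finset (Fin k → Fin n) := D.biUnion fun ω => Fintype.piFinset fun _ => (fib ω)ᶜ
    have hB : c * Bad.card ≤ n ^ k := by
      have e1 : (Bad.card : ℝ) ≤ ∑ ω ∈ D, ((1 - d / 2) * n) ^ k := by
        refine (Nat.cast_le.2 card_biUnion_le).trans ?_
        rw [Nat.cast_sum]
        refine sum_le_sum fun ω hω => ?_
        have := (mem_filter.1 hω).2
        rw [Fintype.card_piFinset, prod_const, card_univ, Fintype.card_fin, Nat.cast_pow,
          card_compl, Nat.cast_sub (card_le_univ _), Fintype.card_fin]
        exact pow_le_pow_left₀ (sub_nonneg.2 (by exact_mod_cast card_finset_fin_le _))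
          (by linarith) k
      have e2 : (D.card : ℝ) ≤ Fintype.card Ω := by exact_mod_cast card_le_univ D
      have e3 : 0 ≤ (1 - d / 2) ^ k := pow_nonneg (by linarith) k
      rw [sum_const, nsmul_eq_mul, mul_pow] at e1
      rw [lt_div_iff₀ (by positivity)] at hk
      have e4 : (c : ℝ) * (D.card * (1 - d / 2) ^ k) ≤ 1 := by
        nlinarith [mul_le_mul_of_nonneg_left (mul_le_mul_of_nonneg_right e2 e3)
          (Nat.cast_nonneg c : (0 : ℝ) ≤ c)]
      have : (c : ℝ) * Bad.card ≤ (n : ℝ) ^ k := by
        nlinarith [mul_le_mul_of_nonneg_left e1 (Nat.cast_nonneg c : (0 : ℝ) ≤ c),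
          mul_le_mul_of_nonneg_right e4 (pow_pos n0 k).le]
      exact_mod_cast this
    refine ⟨Function.update T A (Badᶜ.map e'), fun s => ?_, fun s hs j hj => ?_⟩
    · by_cases hs : s = A
      · subst hs
        simp only [Function.update_self, map_subset_map, subset_univ, true_and]
        rw [card_sdiff_of_subset (map_subset_map.2 (subset_univ _))]
        simpa [card_compl, Nat.sub_sub_self (show Bad.card ≤ n ^ k by
          simpa using card_le_univ Bad)] using hB
      · simpa only [Function.update_of_ne hs] using hT s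
    · obtain ⟨ω, hω, h1⟩ := hT2 (min s A) (min_le_right _ _) j fun i hi => by
        have := hj i (by omega)
        rwa [Function.update_of_ne (by omega)] at this
      have key : ∃ b ∈ fib ω, A < s → b ∈ image (Function.invFun e (j A)) univ := by
        by_cases hs : A < s
        · have := hj A hs
          rw [Function.update_self, mem_map] at this
          obtain ⟨τ, hτ, h2⟩ := this
          simp only [Bad, mem_compl, mem_biUnion, Fintype.mem_piFinset, not_exists, not_and,
            not_forall, not_not] at hτ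
          obtain ⟨l, hl⟩ := hτ ω hω
          refine ⟨τ l, hl, fun _ => ?_⟩
          rw [← h2, show e' τ = e τ from rfl, Function.leftInverse_invFun he τ]
          exact mem_image_of_mem _ (mem_univ l)
        · obtain ⟨b, hb⟩ : (fib ω).Nonempty := by
            rw [← card_pos, ← Nat.cast_pos (α := ℝ)]
            exact lt_of_lt_of_le (by positivity) (mem_filter.1 hω).2
          exact ⟨b, hb, fun h => absurd h hs⟩
      obtain ⟨b, hb, hb2⟩ := key
      refine ⟨(ω, b), (mem_filter.1 hb).2, fun i hi => ?_⟩
      split_ifs with hA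
      · subst hA
        exact mem_product.2 ⟨mem_univ _, hb2 hi⟩
      · exact mem_product.2 ⟨h1 i (by omega), mem_univ _⟩

end Vale.Agent.P126
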